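import Mathlib
import Vale.Agent.P331.Defs
import Vale.Agent.P331.Path
import Vale.Agent.P331.Run
import Vale.Agent.P331.Hyb
import Vale.Agent.P331.Block
import Vale.Agent.P331.Code
import Vale.Agent.P331.Enc
import Vale.Agent.P331.Ent
import Vale.Agent.P331.Lst
import Vale.Agent.P331.Layer
import Vale.Agent.P331.PsiB
import Vale.Agent.P331.Cls
import Vale.Agent.P331.Core
import Vale.Agent.P331.RuleA
import Vale.Agent.P331.Fin

open MeasureTheory
open scoped NNReal ENNReal

namespace Vale.Agent.Results.P331.Almighty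

open Vale.Agent.P331

theorem result : ∃ c : ℝ≥0, 0 < c ∧
    ∀ (α : Type) [Fintype α] [DecidableEq α] (M : Matroid α),
      ∃ (Ω : Type) (_ : MeasurableSpace Ω) (μ : Measure Ω) (_ : IsProbabilityMeasure μ)
        (d : Decision α Ω), IsRule M d ∧
        ∀ (D : α → Measure ℝ≥0), (∀ e, IsProbabilityMeasure (D e)) →
        ∀ π : Input α Ω → List α, IsAdversary π →
          (c : ℝ≥0∞) * ∫⁻ z, opt M z.1.2 ∂(inputLaw D μ) ≤
            ∫⁻ z, gain d (π z) z ∂(inputLaw D μ) := by
  refine ⟨1 / 10 ^ 29, by positivity, fun α _ _ => ?_⟩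
  exact finalStmt (ruleStmt pathStmt runStmt) (coreStmt (classStmt listStmt
    (layerStmt pathStmt runStmt)
    (psiStmt pathStmt (blockStmt pathStmt hybStmt) (entStmt (encStmt codeStmt)))))

end Vale.Agent.Results.P331.Almighty
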