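import Mathlib
import Vale.Agent.P331.Defs
import Vale.Agent.P331.Main

open MeasureTheory
open scoped NNReal ENNReal

namespace Vale.Agent.Results.P331.PublicOrder

open Vale.Agent.P331

theorem result (α : Type) [Fintype α] [DecidableEq α] (M : Matroid α) :
    ∃ (Ω : Type) (_ : MeasurableSpace Ω) (μ : Measure Ω) (_ : IsProbabilityMeasure μ)
      (d : Decision α Ω), IsRule M d ∧
      ∀ (D : α → Measure ℝ≥0), (∀ e, IsProbabilityMeasure (D e)) →
      ∀ π : Input α Ω → List α, IsAdversary π → SeesOnlyDecisions d π →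
        (1 / 2 : ℝ≥0∞) * ∫⁻ z, opt M z.1.2 ∂(inputLaw D μ) ≤
          ∫⁻ z, gain d (π z) z ∂(inputLaw D μ) := by
  refine ⟨α → Bool, inferInstance, ProbabilityTheory.uniformOn Set.univ, inferInstance, dec M,
    dec_isRule M, fun D hD π hπ hs => ?_⟩
  have h := half_competitive M D π hπ hs
  calc _ ≤ (1 / 2 : ℝ≥0∞) * (2 * _) := by gcongr
    _ = _ := by
      rw [← mul_assoc, one_div, ENNReal.inv_mul_cancel (by simp) (by simp), one_mul]

end Vale.Agent.Results.P331.PublicOrder
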